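import Vale.Agent.Lib.P166.Det

/-!
P166.  Ising spin glasses with orthogonally invariant couplings, at every inverse temperature:
the pressure is asymptotically deterministic, and its deterministic equivalent depends only on the
limiting spectral distribution.
-/

namespace Vale.Agent.Results.P166.Deterministic

open MeasureTheory Filter Topology Matrix
open Vale.Agent.Lib.P166

/-- Sanity check: Haar distributed random orthogonal matrices exist. -/
theorem haar_exists (N : ℕ) : ∃ (Ω : Type) (m : MeasurableSpace Ω)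
    (P : @MeasureTheory.Measure Ω m) (U : Ω → Matrix (Fin N) (Fin N) ℝ),
    @MeasureTheory.IsProbabilityMeasure Ω m P ∧ @IsHaar Ω m P N U := exists_haar N

/-- Fix `β ≥ 0`.  There are real numbers `f μ N`, which depend only on `β`, on the probability
measure `μ` and on `N`, such that for Haar distributed `U_N`:

1. for every array of eigenvalues which satisfies the standing assumptions with limit `μ`,
`E |P_N(β) - f μ N|` tends to `0`;

2. if `∫ (x - t)⁺ dμ ≤ ∫ (x - t)⁺ dμ'` for all `t`, then `limsup (f μ N - f μ' N) ≤ 0`;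

3. for every `N` and all eigenvalues in `[-l, l]` the variance of `P_N(β)` is at most
`16 β² l² (2 √N + 3) / N`. -/
theorem result (β : ℝ) (hβ : 0 ≤ β) : ∃ f : Measure ℝ → ℕ → ℝ,
    (∀ (Ω : ℕ → Type) [∀ N, MeasurableSpace (Ω N)] (P : ∀ N, Measure (Ω N))
      [∀ N, IsProbabilityMeasure (P N)] (U : ∀ N, Ω N → Matrix (Fin N) (Fin N) ℝ),
      (∀ N, IsHaar (P N) (U N)) → ∀ (μ : Measure ℝ) (lam : (N : ℕ) → Fin N → ℝ),
      Admissible μ lam →
        Tendsto (fun N => ∫ ω, |pressure β (coupling (lam N) (U N ω)) - f μ N| ∂(P N))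
          atTop (𝓝 0)) ∧
    (∀ (μ μ' : Measure ℝ), (∃ lam, Admissible μ lam) → (∃ lam, Admissible μ' lam) →
      (∀ t : ℝ, ∫ x, max (x - t) 0 ∂μ ≤ ∫ x, max (x - t) 0 ∂μ') →
      ∀ ε > 0, ∀ᶠ N in atTop, f μ N ≤ f μ' N + ε) ∧
    (∀ (Ω : ℕ → Type) [∀ N, MeasurableSpace (Ω N)] (P : ∀ N, Measure (Ω N))
      [∀ N, IsProbabilityMeasure (P N)] (U : ∀ N, Ω N → Matrix (Fin N) (Fin N) ℝ),
      (∀ N, IsHaar (P N) (U N)) → ∀ (N : ℕ) (lam : Fin N → ℝ) (l : ℝ), (∀ i, |lam i| ≤ l) →
        ∫ ω, (pressure β (coupling lam (U N ω)) -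
          ∫ ω', pressure β (coupling lam (U N ω')) ∂(P N)) ^ 2 ∂(P N) ≤
          16 * β ^ 2 * l ^ 2 * (2 * Real.sqrt N + 3) / N) := by
  obtain ⟨f, h1, h2⟩ := deterministic β hβ
  exact ⟨f, h1, h2, fun _ _ _ _ _ hU N lam l hl => variance_pressure hU hβ N lam l hl⟩

end Vale.Agent.Results.P166.Deterministic
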