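import Vale.Agent.Lib.P166.Univ

/-!
P166.  Ising spin glasses with orthogonally invariant couplings, at every inverse temperature:
the law of the pressure depends asymptotically only on the limiting spectral distribution, and the
expected pressure is asymptotically monotone for the increasing convex order of spectral
distributions.
-/

namespace Vale.Agent.Results.P166.Universality

open MeasureTheory Filter Topology Matrix
open Vale.Agent.Lib.P166

/-- Let `U_N` be Haar distributed on the orthogonal group.

1. Universality: if two arrays of eigenvalues satisfy the standing assumptions with the same limit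
`μ`, then the Wasserstein-1 distance (written by Kantorovich duality) between the laws of the two
pressures tends to `0`.

2. Comparison: if `∫ (x - t)⁺ dμ ≤ ∫ (x - t)⁺ dμ'` for all `t`, then the limit superior of
`E P_N(μ) - E P_N(μ')` is at most `0`. -/
theorem result (β : ℝ) (hβ : 0 ≤ β) (Ω : ℕ → Type) [∀ N, MeasurableSpace (Ω N)]
    (P : ∀ N, Measure (Ω N)) [∀ N, IsProbabilityMeasure (P N)]
    (U : ∀ N, Ω N → Matrix (Fin N) (Fin N) ℝ) (hU : ∀ N, IsHaar (P N) (U N)) :
    (∀ (μ : Measure ℝ) (lam lam' : (N : ℕ) → Fin N → ℝ), Admissible μ lam → Admissible μ lam' →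
      ∀ ε > 0, ∀ᶠ N in atTop, ∀ φ : ℝ → ℝ, LipschitzWith 1 φ →
        |∫ ω, φ (pressure β (coupling (lam N) (U N ω))) ∂(P N) -
          ∫ ω, φ (pressure β (coupling (lam' N) (U N ω))) ∂(P N)| ≤ ε) ∧
    (∀ (μ μ' : Measure ℝ) (lam lam' : (N : ℕ) → Fin N → ℝ), Admissible μ lam →
      Admissible μ' lam' → (∀ t : ℝ, ∫ x, max (x - t) 0 ∂μ ≤ ∫ x, max (x - t) 0 ∂μ') →
      ∀ ε > 0, ∀ᶠ N in atTop, ∫ ω, pressure β (coupling (lam N) (U N ω)) ∂(P N) ≤
        ∫ ω, pressure β (coupling (lam' N) (U N ω)) ∂(P N) + ε) :=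
  ⟨fun _ _ _ h h' _ hε => universality hβ hU h h' hε,
    fun _ _ _ _ h h' hcx _ hε => comparison hβ hU h h' hcx hε⟩

end Vale.Agent.Results.P166.Universality
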